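import Vale.Agent.P207.N3.H992.NSE

/-!
# P207, all dimensions, row T1: limits of bounded families, cocycles over a shift

`BF.lim` : a family `z : ℕ × P → E → F` with `z (n + 1, p) - z (n, p)` of size `b ^ n` in `C^k`
converges in `C^k` with rate `b`, uniformly in `p ∈ P`, and the limit is again a bounded family.
`BF.cocycleS` : contracting cocycles over a map `S : P → P` are bounded in `C^k`.
-/

noncomputable section

namespace Vale.Agent.P207.N4.H734

open Set Metric Filter Topology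
open Vale.Agent.P207.N3.H992

universe u

variable {P : Type*} [TopologicalSpace P]
variable {E : Type u} [NormedAddCommGroup E] [NormedSpace ℝ E] {R : ℝ}

section lim

/-- the pointwise limit of a sequence of families -/
def limF {F : Type u} [NormedAddCommGroup F] (z : ℕ × P → E → F) (p : P) (x : E) : F :=
  limUnder atTop fun n => z (n, p) x

/-- the weighted differences of a sequence of families -/
def dif (b : ℝ) {F : Type u} [NormedAddCommGroup F] [NormedSpace ℝ F] (z : ℕ × P → E → F)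
    (p : ℕ × P) (x : E) : F := (b⁻¹) ^ p.1 • (z (p.1 + 1, p.2) x - z p x)

omit [TopologicalSpace P] [NormedSpace ℝ E] in
theorem limF_spec {b : ℝ} (hb : 0 < b) (hb1 : b < 1) {F : Type u} [NormedAddCommGroup F]
    [NormedSpace ℝ F] [CompleteSpace F] {z : ℕ × P → E → F} {C : ℝ}
    (hC : ∀ p, ∀ x ∈ ball (0 : E) R, ‖dif b z p x‖ ≤ C) (p : P) {x : E}
    (hx : x ∈ ball (0 : E) R) :
    Tendsto (fun n => z (n, p) x) atTop (𝓝 (limF z p x)) ∧
      ∀ n, ‖z (n, p) x - limF z p x‖ ≤ C / (1 - b) * b ^ n := by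
  have h1 : ∀ n, dist (z (n, p) x) (z (n + 1, p) x) ≤ C * b ^ n := by
    intro n
    have h := hC (n, p) x hx
    rw [dif, norm_smul, norm_pow, norm_inv, Real.norm_of_nonneg hb.le, inv_pow,
      inv_mul_le_iff₀ (by positivity)] at h
    rw [dist_comm, dist_eq_norm, mul_comm]
    exact h
  have h2 : CauchySeq fun n => z (n, p) x := cauchySeq_of_le_geometric b C hb1 h1
  have h3 : Tendsto (fun n => z (n, p) x) atTop (𝓝 (limF z p x)) := h2.tendsto_limUnder
  refine ⟨h3, fun n => ?_⟩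
  have h4 := dist_le_of_le_geometric_of_tendsto b C hb1 h1 h3 n
  rw [dist_eq_norm] at h4
  calc _ ≤ _ := h4
    _ = _ := by ring

variable {F : Type u} [NormedAddCommGroup F] [NormedSpace ℝ F]

omit [TopologicalSpace P] [NormedSpace ℝ E] in
theorem limF_unif [CompleteSpace F] {b : ℝ} (hb : 0 < b) (hb1 : b < 1)
    {z : ℕ × P → E → F} {C : ℝ} (hC : ∀ p, ∀ x ∈ ball (0 : E) R, ‖dif b z p x‖ ≤ C) :
    TendstoUniformlyOn (fun (n : ℕ) (q : P × E) => z (n, q.1) q.2)
      (fun q => limF z q.1 q.2) atTop (univ ×ˢ ball 0 R) := by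
  rw [Metric.tendstoUniformlyOn_iff]
  intro ε hε
  have h5 : Tendsto (fun n : ℕ => C / (1 - b) * b ^ n) atTop (𝓝 0) := by
    have h := (tendsto_pow_atTop_nhds_zero_of_lt_one hb.le hb1).const_mul (C / (1 - b))
    rwa [mul_zero] at h
  filter_upwards [h5.eventually (gt_mem_nhds hε)] with n hn q hq
  rw [dist_comm, dist_eq_norm]
  exact ((limF_spec hb hb1 hC q.1 hq.2).2 n).trans_lt hn

omit [NormedSpace ℝ E] in
theorem limF_cont [CompleteSpace F] {b : ℝ} (hb : 0 < b) (hb1 : b < 1)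
    {z : ℕ × P → E → F} (hz : B0 R z) (hd : B0 R (dif b z)) :
    ContinuousOn (fun q : P × E => limF z q.1 q.2) (univ ×ˢ ball 0 R) := by
  obtain ⟨C, hC⟩ := hd.bdd
  refine (limF_unif hb hb1 hC).continuousOn (Eventually.of_forall fun n => ?_).frequently
  have hι : ContinuousOn (fun q : P × E => (((n, q.1), q.2) : (ℕ × P) × E))
      (univ ×ˢ ball 0 R) :=
    ((continuous_const.prodMk continuous_fst).prodMk continuous_snd).continuousOn
  exact hz.cont.comp hι fun q hq => ⟨mem_univ _, hq.2⟩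

omit [NormedSpace ℝ E] in
theorem B0.lim [CompleteSpace F] {b : ℝ} (hb : 0 < b) (hb1 : b < 1)
    {z : ℕ × P → E → F} (hz : B0 R z) (hd : B0 R (dif b z)) : B0 R (limF z) := by
  refine ⟨limF_cont hb hb1 hz hd, ?_⟩
  obtain ⟨C, hC⟩ := hd.bdd
  obtain ⟨D, hD⟩ := hz.bdd
  refine ⟨|D| + |C / (1 - b)|, fun p x hx => ?_⟩
  have h6 := (limF_spec hb hb1 hC p hx).2 0
  have h7 := hD (0, p) x hx
  rw [pow_zero, mul_one] at h6
  have h8 : limF z p x = z (0, p) x - (z (0, p) x - limF z p x) := by abel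
  rw [h8]
  exact (norm_sub_le _ _).trans
    (add_le_add (h7.trans (le_abs_self _)) (h6.trans (le_abs_self _)))

omit [NormedSpace ℝ E] in
theorem B0.limr [CompleteSpace F] {b : ℝ} (hb : 0 < b) (hb1 : b < 1)
    {z : ℕ × P → E → F} (hz : B0 R z) (hd : B0 R (dif b z)) :
    B0 R (fun (p : ℕ × P) x => (b⁻¹) ^ p.1 • (z p x - limF z p.2 x)) := by
  obtain ⟨C, hC⟩ := hd.bdd
  refine ⟨?_, |C / (1 - b)|, fun p x hx => ?_⟩
  · have h9 : ContinuousOn (fun q : (ℕ × P) × E => ((q.1.2, q.2) : P × E))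
        (univ ×ˢ ball 0 R) :=
      ((continuous_snd.comp continuous_fst).prodMk continuous_snd).continuousOn
    have h8 : ContinuousOn ((fun q : P × E => limF z q.1 q.2) ∘
        (fun q : (ℕ × P) × E => ((q.1.2, q.2) : P × E))) (univ ×ˢ ball 0 R) :=
      ContinuousOn.comp (t := univ ×ˢ ball 0 R) (limF_cont hb hb1 hz hd) h9
        fun q hq => ⟨mem_univ _, hq.2⟩
    have h10 : ContinuousOn (fun q : (ℕ × P) × E => (b⁻¹) ^ q.1.1) (univ ×ˢ ball 0 R) :=
      ((pow_cont (Ξ := P) (b⁻¹)).comp continuous_fst).continuousOn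
    exact h10.smul (hz.cont.sub h8)
  · have h6 := (limF_spec hb hb1 hC p.2 hx).2 p.1
    rw [norm_smul, norm_pow, norm_inv, Real.norm_of_nonneg hb.le, inv_pow,
      inv_mul_le_iff₀ (by positivity), mul_comm]
    exact h6.trans (mul_le_mul_of_nonneg_right (le_abs_self _) (by positivity))

/-- **limits of bounded `C^k` families** -/
theorem BF.lim {b : ℝ} (hb : 0 < b) (hb1 : b < 1) {k : ℕ} : ∀ {F : Type u}
    [NormedAddCommGroup F] [NormedSpace ℝ F] [CompleteSpace F] {z : ℕ × P → E → F},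
    BF R k z → BF R k (dif b z) →
    BF R k (limF z) ∧ BF R k (fun (p : ℕ × P) x => (b⁻¹) ^ p.1 • (z p x - limF z p.2 x)) := by
  induction k with
  | zero => intro F _ _ _ z hz hd; exact ⟨B0.lim hb hb1 hz hd, B0.limr hb hb1 hz hd⟩
  | succ k ih =>
    intro F _ _ _ z hz hd
    have hD1 : ∀ p, ∀ x ∈ ball (0 : E) R, fderiv ℝ (dif b z p) x =
        dif b (fun p x => fderiv ℝ (z p) x) p x := by
      intro p x hx
      have h1 : HasFDerivAt (dif b z p)
          ((b⁻¹) ^ p.1 • (fderiv ℝ (z (p.1 + 1, p.2)) x - fderiv ℝ (z p) x)) x :=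
        ((hz.diff hx).hasFDerivAt.sub (hz.diff hx).hasFDerivAt).const_smul _
      exact h1.fderiv
    have hd' : BF R k (dif b (fun p x => fderiv ℝ (z p) x)) :=
      hd.der.congr fun p x hx => (hD1 p x hx).symm
    obtain ⟨hl, hlr⟩ := ih (F := E →L[ℝ] F) (z := fun p x => fderiv ℝ (z p) x) hz.der hd'
    have h0l := B0.lim hb hb1 hz.b0 hd.b0
    have h0r := B0.limr hb hb1 hz.b0 hd.b0
    obtain ⟨C, hC⟩ := hd.b0.bdd
    obtain ⟨C', hC'⟩ := hd'.b0.bdd
    have hder : ∀ p, ∀ x ∈ ball (0 : E) R,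
        HasFDerivAt (limF z p) (limF (fun p x => fderiv ℝ (z p) x) p x) x := by
      intro p x hx
      have hu : TendstoUniformlyOn (fun (n : ℕ) (x : E) => fderiv ℝ (z (n, p)) x)
          (limF (fun p x => fderiv ℝ (z p) x) p) atTop (ball 0 R) := by
        rw [Metric.tendstoUniformlyOn_iff]
        intro ε hε
        have h6 := Metric.tendstoUniformlyOn_iff.1 (limF_unif hb hb1 hC') ε hε
        filter_upwards [h6] with n hn x hx
        exact hn (p, x) ⟨mem_univ _, hx⟩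
      exact hasFDerivAt_of_tendstoUniformlyOn isOpen_ball hu
        (fun n x hx => (hz.diff (p := (n, p)) hx).hasFDerivAt)
        (fun x hx => (limF_spec hb hb1 hC p hx).1) hx
    refine ⟨⟨h0l, fun p x hx => (hder p x hx).differentiableAt,
      hl.congr fun p x hx => (hder p x hx).fderiv⟩, h0r, fun p x hx => ?_, ?_⟩
    · exact ((hz.diff hx).sub (hder p.2 x hx).differentiableAt).const_smul _
    · refine hlr.congr fun p x hx => ?_
      exact (((hz.diff hx).hasFDerivAt.sub (hder p.2 x hx)).const_smul _).fderiv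

end lim

section shift

variable {F : Type u} [NormedAddCommGroup F] [NormedSpace ℝ F]

/-- auxiliary sequence: the parameter is the end point and its distance -/
def aux (S : P → P) (G : P → E → E) (M : P → E → (F →L[ℝ] F)) (e w : ℕ × P → E → F) :
    ℕ → (ℕ × P) → E → F
  | 0, q, x => w (0, S^[q.1] q.2) x
  | m + 1, q, x => M (S^[q.1 - m - 1] q.2) x
      (aux S G M e w m q (G (S^[q.1 - m - 1] q.2) x)) + e (m, S^[q.1 - m - 1] q.2) x

theorem iter_cont {S : P → P} (hS : Continuous S) {f : ℕ → ℕ} :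
    Continuous (fun q : ℕ × P => S^[f q.1] q.2) := by
  rw [continuous_iff_continuousAt]
  rintro ⟨n, p⟩
  have h1 : ContinuousAt (fun q : ℕ × P => S^[f n] q.2) (n, p) :=
    ((hS.iterate (f n)).comp continuous_snd).continuousAt
  refine h1.congr ?_
  have h4 : {q : ℕ × P | q.1 = n} ∈ 𝓝 ((n, p) : ℕ × P) :=
    IsOpen.mem_nhds ((isOpen_discrete {n}).preimage continuous_fst) rfl
  filter_upwards [h4] with q hq
  have : q.1 = n := hq
  rw [this]

/-- **contracting cocycles over a map are bounded in `C^k`** -/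
theorem BF.cocycleS {θ : ℝ} (hθ0 : 0 ≤ θ) (hθ : θ < 1) {S : P → P} (hS : Continuous S)
    {G : P → E → E} (hG : ∀ k, BF R k G) (hm : ∀ p, ∀ x ∈ ball (0 : E) R, G p x ∈ ball (0 : E) R)
    (hDG : ∀ p, ∀ x ∈ ball (0 : E) R, ‖fderiv ℝ (G p) x‖ ≤ 1) {k : ℕ}
    {M : P → E → (F →L[ℝ] F)} {e w : ℕ × P → E → F} (hM : BF R k M)
    (hMθ : ∀ p, ∀ x ∈ ball (0 : E) R, ‖M p x‖ ≤ θ) (he : BF R k e)
    (hw0 : BF R k (fun p x => w (0, p) x))
    (hw : ∀ m p, ∀ x ∈ ball (0 : E) R, w (m + 1, p) x = M p x (w (m, S p) (G p x)) +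
      e (m, p) x) : BF R k w := by
  -- reparametrisation
  have hι : Continuous (fun q : ℕ × (ℕ × P) => S^[q.2.1 - q.1 - 1] q.2.2) := by
    rw [continuous_iff_continuousAt]
    rintro ⟨m, n, p⟩
    have h1 : ContinuousAt (fun q : ℕ × (ℕ × P) => S^[n - m - 1] q.2.2) (m, n, p) :=
      ((hS.iterate _).comp (continuous_snd.comp continuous_snd)).continuousAt
    refine h1.congr ?_
    have h4 : {q : ℕ × (ℕ × P) | q.1 = m} ∈ 𝓝 ((m, n, p) : ℕ × (ℕ × P)) :=
      IsOpen.mem_nhds ((isOpen_discrete {m}).preimage continuous_fst) rfl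
    have h5 : {q : ℕ × (ℕ × P) | q.2.1 = n} ∈ 𝓝 ((m, n, p) : ℕ × (ℕ × P)) :=
      IsOpen.mem_nhds ((isOpen_discrete {n}).preimage (continuous_fst.comp continuous_snd)) rfl
    filter_upwards [h4, h5] with q hq hq'
    have h6 : q.1 = m := hq
    have h7 : q.2.1 = n := hq'
    rw [h6, h7]
  have hι' : Continuous (fun q : ℕ × (ℕ × P) => ((q.1, S^[q.2.1 - q.1 - 1] q.2.2) : ℕ × P)) :=
    continuous_fst.prodMk hι
  have h1 : BF R k (fun (q : ℕ × (ℕ × P)) x => aux S G M e w q.1 q.2 x) := by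
    refine BF.cocycle (Ξ := ℕ × P) hθ0 hθ
      (G := fun q x => G (S^[q.2.1 - q.1 - 1] q.2.2) x)
      (M := fun q x => M (S^[q.2.1 - q.1 - 1] q.2.2) x)
      (e := fun q x => e (q.1, S^[q.2.1 - q.1 - 1] q.2.2) x)
      (fun k => BF.reparam hι (hG k)) (fun q x hx => hm _ x hx) (fun q x hx => hDG _ x hx)
      (BF.reparam hι hM) (fun q x hx => hMθ _ x hx) (BF.reparam hι' he) ?_ ?_
    · have h2 : Continuous (fun q : ℕ × P => S^[q.1] q.2) := iter_cont hS (f := fun n => n)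
      exact BF.reparam h2 hw0
    · intro m q x _
      rfl
  have h2 : ∀ m n p, m ≤ n → ∀ x ∈ ball (0 : E) R, aux S G M e w m (n, p) x =
      w (m, S^[n - m] p) x := by
    intro m
    induction m with
    | zero => intro n p _ x _; rfl
    | succ m ih =>
      intro n p hmn x hx
      have h3 : n - m = (n - m - 1) + 1 := by omega
      have h4 : S^[n - m] p = S (S^[n - m - 1] p) := by
        conv_lhs => rw [h3]
        exact Function.iterate_succ_apply' S _ _
      rw [aux, ih n p (by omega) _ (hm _ x hx)]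
      change M (S^[n - m - 1] p) x (w (m, S^[n - m] p) (G (S^[n - m - 1] p) x)) +
        e (m, S^[n - m - 1] p) x = _
      rw [h4, ← hw m _ x hx]
      rfl
  have h5 : Continuous (fun q : ℕ × P => ((q.1, (q.1, q.2)) : ℕ × (ℕ × P))) :=
    continuous_fst.prodMk (continuous_fst.prodMk continuous_snd)
  refine (BF.reparam h5 h1).congr fun q x hx => ?_
  have h6 := h2 q.1 q.1 q.2 le_rfl x hx
  rw [Nat.sub_self] at h6
  exact h6.symm

/-- the same for families of linear maps, `w ↦ B ∘ w ∘ Γ` -/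
theorem BF.cocycleL {θ : ℝ} (hθ0 : 0 ≤ θ) (hθ : θ < 1) {S : P → P} (hS : Continuous S)
    {G : P → E → E} (hG : ∀ k, BF R k G) (hm : ∀ p, ∀ x ∈ ball (0 : E) R, G p x ∈ ball (0 : E) R)
    (hDG : ∀ p, ∀ x ∈ ball (0 : E) R, ‖fderiv ℝ (G p) x‖ ≤ 1) {k : ℕ}
    {B : P → E → (F →L[ℝ] F)} {Γ : P → E → (E →L[ℝ] E)} {e w : ℕ × P → E → (E →L[ℝ] F)}
    (hB : BF R k B) (hΓ : BF R k Γ)
    (hθ' : ∀ p, ∀ x ∈ ball (0 : E) R, ‖B p x‖ * ‖Γ p x‖ ≤ θ) (he : BF R k e)
    (hw0 : BF R k (fun p x => w (0, p) x))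
    (hw : ∀ m p, ∀ x ∈ ball (0 : E) R, w (m + 1, p) x =
      (B p x).comp ((w (m, S p) (G p x)).comp (Γ p x)) + e (m, p) x) : BF R k w :=
  BF.cocycleS hθ0 hθ hS hG hm hDG (M := fun p x => sand (B p x) (Γ p x)) (BF.sand hB hΓ)
    (fun p x hx => (norm_sand_le _ _).trans (hθ' p x hx)) he hw0 hw

end shift

end Vale.Agent.P207.N4.H734
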