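import Vale.Agent.P207.H734.N4.Lim

/-!
# P207, all dimensions, row T1: nonstationary linearisation of a bunched contraction

`LinData` : a contraction `g p : ball 0 R → ball 0 R` over a map `S : P → P`, with the fixed point
`0`, bounded in `C^k` uniformly in `p ∈ P`, continuous in `p`, with
`‖(D g p 0)⁻¹‖ * sup ‖D (g p)‖ ^ 2 ≤ θ < 1`.
`LinData.lin` : the unique family, bounded in every `C^k`, with
`lin p x = (D g p 0)⁻¹ (lin (S p) (g p x))`, `lin p 0 = 0`, `D (lin p) 0 = 1`; the sequence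
`(D g_n 0)⁻¹ ∘ g_n` (`g_n` the iterates) converges to it in `C^∞` with every rate `> θ`.
-/

noncomputable section

namespace Vale.Agent.P207.N4.H734

open Set Metric Filter Topology
open Vale.Agent.P207.N3.H992

universe u

/-- a bunched contraction over a map -/
structure LinData (P : Type*) [TopologicalSpace P] (E : Type u) [NormedAddCommGroup E]
    [NormedSpace ℝ E] (R θ : ℝ) where
  S : P → P
  S_cont : Continuous S
  g : P → E → E
  g_bf : ∀ k, BF R k g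
  g_zero : ∀ p, g p 0 = 0
  g_maps : ∀ p, ∀ x ∈ ball (0 : E) R, g p x ∈ ball (0 : E) R
  Λ : P → E →L[ℝ] E
  Λ_cont : Continuous Λ
  Λ_bdd : ∃ C, ∀ p, ‖Λ p‖ ≤ C
  Λ_left : ∀ p, (Λ p).comp (fderiv ℝ (g p) 0) = ContinuousLinearMap.id ℝ E
  Λ_right : ∀ p, (fderiv ℝ (g p) 0).comp (Λ p) = ContinuousLinearMap.id ℝ E
  K : P → ℝ
  K_le : ∀ p, ∀ x ∈ ball (0 : E) R, ‖fderiv ℝ (g p) x‖ ≤ K p
  K_one : ∀ p, K p ≤ 1
  bunch : ∀ p, ‖Λ p‖ * K p ^ 2 ≤ θ
  R_pos : 0 < R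
  θ_nonneg : 0 ≤ θ
  θ_lt : θ < 1

variable {P : Type*} [TopologicalSpace P]
variable {E : Type u} [NormedAddCommGroup E] [NormedSpace ℝ E] {R θ : ℝ}

namespace LinData

variable (d : LinData P E R θ)

/-- the iterates -/
def it : ℕ → P → E → E
  | 0, _, x => x
  | n + 1, p, x => it n (d.S p) (d.g p x)

/-- the inverses of the derivatives of the iterates at `0` -/
def Λn : ℕ → P → E →L[ℝ] E
  | 0, _ => ContinuousLinearMap.id ℝ E
  | n + 1, p => (d.Λ p).comp (Λn n (d.S p))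

/-- the Hadamard quotient of `g` -/
def Γ (p : P) (x : E) : E →L[ℝ] E := Had (d.g p) x

/-- the nonlinear part of `g` -/
def nl (p : P) (x : E) : E := d.Λ p (d.g p x) - x

/-- its second Hadamard quotient -/
def e2 (p : P) (x : E) : E →L[ℝ] E →L[ℝ] E := Had (Had (d.nl p)) x

/-- the operator of the cocycle -/
def M (p : P) (x : E) : (E →L[ℝ] E) →L[ℝ] (E →L[ℝ] E) := sand (d.Λ p) (d.Γ p x)

/-- the quadratic part of `Λn ∘ it` -/
def W : ℕ → P → E → E →L[ℝ] E →L[ℝ] E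
  | 0, _, _ => 0
  | n + 1, p, x => (d.M p x).comp ((W n (d.S p) (d.g p x)).comp (d.Γ p x)) + d.e2 p x

theorem W_succ (n : ℕ) (p : P) (x : E) : d.W (n + 1) p x =
    (d.M p x).comp ((d.W n (d.S p) (d.g p x)).comp (d.Γ p x)) + d.e2 p x := rfl

/-- the same as a family -/
def Wf (q : ℕ × P) (x : E) : E →L[ℝ] E →L[ℝ] E := d.W q.1 q.2 x

theorem K_nonneg (p : P) : 0 ≤ d.K p :=
  (norm_nonneg _).trans (d.K_le p 0 (mem_ball_self d.R_pos))

theorem Γ_le (p : P) {x : E} (hx : x ∈ ball (0 : E) R) : ‖d.Γ p x‖ ≤ d.K p :=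
  norm_had_le (d.K_le p) hx

theorem M_le (p : P) {x : E} (hx : x ∈ ball (0 : E) R) : ‖d.M p x‖ * ‖d.Γ p x‖ ≤ θ := by
  have h2 := norm_sand_le (d.Λ p) (d.Γ p x)
  have h3 := d.Γ_le p hx
  have h4 := d.K_nonneg p
  calc ‖d.M p x‖ * ‖d.Γ p x‖ ≤ (‖d.Λ p‖ * ‖d.Γ p x‖) * ‖d.Γ p x‖ := by
        gcongr
        exact h2
    _ ≤ (‖d.Λ p‖ * d.K p) * d.K p := by gcongr
    _ = ‖d.Λ p‖ * d.K p ^ 2 := by ring
    _ ≤ θ := d.bunch p

theorem Λ_bf (k : ℕ) : BF R k (fun p (_ : E) => d.Λ p) := BF.const d.Λ_cont d.Λ_bdd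

theorem nl_bf (k : ℕ) : BF R k d.nl := ((d.Λ_bf k).app (d.g_bf k)).sub BF.id'

theorem nl_zero (p : P) : d.nl p 0 = 0 := by
  rw [nl, d.g_zero, map_zero, sub_zero]

theorem nl_fderiv (p : P) : fderiv ℝ (d.nl p) 0 = 0 := by
  have h1 : HasFDerivAt (d.nl p) ((d.Λ p).comp (fderiv ℝ (d.g p) 0) -
      ContinuousLinearMap.id ℝ E) 0 :=
    ((d.Λ p).hasFDerivAt.comp (0 : E)
      ((d.g_bf 1).diff (p := p) (mem_ball_self d.R_pos)).hasFDerivAt).sub (hasFDerivAt_id 0)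
  rw [h1.fderiv, d.Λ_left, sub_self]

variable [CompleteSpace E]

theorem Γ_bf (k : ℕ) : BF R k d.Γ := BF.had (d.g_bf (k + 1))

theorem Γ_apply (p : P) {x : E} (hx : x ∈ ball (0 : E) R) : d.Γ p x x = d.g p x := by
  have h := (d.g_bf 1).had_apply p hx
  rw [d.g_zero, sub_zero] at h
  exact h

theorem norm_g_le (p : P) {x : E} (hx : x ∈ ball (0 : E) R) : ‖d.g p x‖ ≤ d.K p * ‖x‖ := by
  rw [← d.Γ_apply p hx]
  exact (ContinuousLinearMap.le_opNorm _ _).trans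
    (mul_le_mul_of_nonneg_right (d.Γ_le p hx) (norm_nonneg _))

theorem e2_bf (k : ℕ) : BF R k d.e2 :=
  BF.had (z := fun p => Had (d.nl p)) (BF.had (d.nl_bf (k + 2)))

theorem e2_apply (p : P) {x : E} (hx : x ∈ ball (0 : E) R) : d.e2 p x x x = d.nl p x := by
  have h1 := (BF.had (d.nl_bf 2)).had_apply p hx
  have h2 := (d.nl_bf 1).had_apply p hx
  rw [had_zero, d.nl_fderiv, sub_zero] at h1
  rw [d.nl_zero, sub_zero] at h2
  rw [e2, h1, h2]

theorem M_bf (k : ℕ) : BF R k d.M := BF.sand (d.Λ_bf k) (d.Γ_bf k)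

theorem W_bf (k : ℕ) : BF R k d.Wf := by
  refine BF.cocycleL d.θ_nonneg d.θ_lt d.S_cont d.g_bf d.g_maps
    (fun p x hx => (d.K_le p x hx).trans (d.K_one p)) (d.M_bf k) (d.Γ_bf k)
    (fun p x hx => d.M_le p hx)
    (e := fun (q : ℕ × P) x => d.e2 q.2 x) (BF.reparam continuous_snd (d.e2_bf k)) ?_ ?_
  · exact (BF.cst (0 : E →L[ℝ] E →L[ℝ] E)).congr fun p x _ => rfl
  · intro m p x _
    rfl

theorem dif_bf {b : ℝ} (hb : θ < b) (k : ℕ) : BF R k (dif b d.Wf) := by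
  have hb0 : 0 < b := d.θ_nonneg.trans_lt hb
  refine BF.cocycleL (θ := b⁻¹ * θ) (by have := d.θ_nonneg; positivity)
    (by rw [inv_mul_lt_iff₀ hb0, mul_one]; exact hb) d.S_cont d.g_bf d.g_maps
    (fun p x hx => (d.K_le p x hx).trans (d.K_one p))
    (B := fun p x => (b⁻¹) • d.M p x) (Γ := d.Γ) (e := fun _ _ => 0) ?_ (d.Γ_bf k) ?_
    (BF.cst 0) ?_ ?_
  · exact BF.smulc (c := fun _ => b⁻¹) continuous_const ⟨_, fun _ => le_rfl⟩ (d.M_bf k)
  · intro p x hx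
    rw [norm_smul, norm_inv, Real.norm_of_nonneg hb0.le, mul_assoc]
    exact mul_le_mul_of_nonneg_left (d.M_le p hx) (by positivity)
  · refine (d.e2_bf k).congr fun p x _ => ?_
    simp [dif, Wf, W]
  · intro m p x _
    have h1 : d.Wf (m + 1 + 1, p) x - d.Wf (m + 1, p) x =
        (d.M p x).comp ((d.Wf (m + 1, d.S p) (d.g p x) - d.Wf (m, d.S p) (d.g p x)).comp
          (d.Γ p x)) := by
      change d.W (m + 1 + 1) p x - d.W (m + 1) p x = _
      rw [d.W_succ (m + 1) p x, d.W_succ m p x, add_sub_add_right_eq_sub,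
        ContinuousLinearMap.sub_comp, ContinuousLinearMap.comp_sub]
      rfl
    simp only [dif]
    rw [h1, add_zero, pow_succ', mul_smul, ContinuousLinearMap.smul_comp,
      ContinuousLinearMap.smul_comp, ContinuousLinearMap.comp_smul]

/-- the limit of the quadratic parts -/
def Winf (p : P) (x : E) : E →L[ℝ] E →L[ℝ] E := limF d.Wf p x

/-- **the linearisation** -/
def lin (p : P) (x : E) : E := x + d.Winf p x x x

omit [CompleteSpace E] in
include d in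
/-- an intermediate rate -/
theorem exists_rate : ∃ b : ℝ, θ < b ∧ b < 1 := exists_between d.θ_lt

theorem Winf_bf (k : ℕ) : BF R k d.Winf := by
  obtain ⟨b, hb, hb1⟩ := d.exists_rate
  exact (BF.lim (d.θ_nonneg.trans_lt hb) hb1 (d.W_bf k) (d.dif_bf hb k)).1

theorem lin_bf (k : ℕ) : BF R k d.lin :=
  BF.id'.add (((d.Winf_bf k).app BF.id').app BF.id')

omit [CompleteSpace E] in
theorem lin_zero (p : P) : d.lin p 0 = 0 := by simp [lin]

theorem lin_sub_le : ∃ C, 0 ≤ C ∧ ∀ p, ∀ x ∈ ball (0 : E) R, ‖d.lin p x - x‖ ≤ C * ‖x‖ ^ 2 := by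
  obtain ⟨C, hC⟩ := (d.Winf_bf 0).b0.bdd
  refine ⟨|C|, abs_nonneg _, fun p x hx => ?_⟩
  rw [lin, add_sub_cancel_left]
  calc _ ≤ ‖d.Winf p x x‖ * ‖x‖ := ContinuousLinearMap.le_opNorm _ _
    _ ≤ (‖d.Winf p x‖ * ‖x‖) * ‖x‖ := by gcongr; exact ContinuousLinearMap.le_opNorm _ _
    _ ≤ (|C| * ‖x‖) * ‖x‖ := by gcongr; exact (hC p x hx).trans (le_abs_self _)
    _ = _ := by ring

theorem lin_hasFDerivAt_zero (p : P) :
    HasFDerivAt (d.lin p) (ContinuousLinearMap.id ℝ E) 0 := by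
  have h0 : (0 : E) ∈ ball (0 : E) R := mem_ball_self d.R_pos
  have h1 : HasFDerivAt (d.Winf p) (fderiv ℝ (d.Winf p) 0) 0 :=
    ((d.Winf_bf 1).diff h0).hasFDerivAt
  have h2 := (h1.clm_apply (hasFDerivAt_id (0 : E))).clm_apply (hasFDerivAt_id (0 : E))
  have h3 := (hasFDerivAt_id (0 : E)).add h2
  have h4 : ContinuousLinearMap.id ℝ E = ContinuousLinearMap.id ℝ E +
      (((d.Winf p 0) (id (0 : E))).comp (ContinuousLinearMap.id ℝ E) +
      (((d.Winf p 0).comp (ContinuousLinearMap.id ℝ E) +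
        (fderiv ℝ (d.Winf p) 0).flip (id (0 : E))).flip) (id (0 : E))) := by
    ext v
    simp
  rw [h4]
  exact h3

theorem lin_fderiv_zero (p : P) : fderiv ℝ (d.lin p) 0 = ContinuousLinearMap.id ℝ E :=
  (d.lin_hasFDerivAt_zero p).fderiv

theorem w_eq (n : ℕ) : ∀ (p : P), ∀ x ∈ ball (0 : E) R,
    d.Λn n p (d.it n p x) = x + d.W n p x x x := by
  induction n with
  | zero => intro p x _; simp [Λn, it, W]
  | succ n ih =>
    intro p x hx
    have h1 := ih (d.S p) _ (d.g_maps p x hx)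
    have h2 : (d.W (n + 1) p x) x x = d.Λ p (d.W n (d.S p) (d.g p x) (d.Γ p x x) (d.Γ p x x)) +
        d.e2 p x x x := rfl
    rw [Λn, it, ContinuousLinearMap.comp_apply, h1, h2,
      d.e2_apply p hx, d.Γ_apply p hx, map_add, nl]
    abel

theorem tendsto_w (p : P) {x : E} (hx : x ∈ ball (0 : E) R) :
    Tendsto (fun n => d.Λn n p (d.it n p x)) atTop (𝓝 (d.lin p x)) := by
  obtain ⟨b, hb, hb1⟩ := d.exists_rate
  obtain ⟨C, hC⟩ := (d.dif_bf hb 0).b0.bdd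
  have h1 := (limF_spec (d.θ_nonneg.trans_lt hb) hb1 hC p hx).1
  have h2 : Tendsto (fun n => x + d.Wf (n, p) x x x) atTop (𝓝 (d.lin p x)) := by
    have h3 := (((ContinuousLinearMap.apply ℝ (E →L[ℝ] E) x).continuous.tendsto _).comp h1)
    have h4 := (((ContinuousLinearMap.apply ℝ E x).continuous.tendsto _).comp h3)
    exact h4.const_add x
  refine h2.congr fun n => ?_
  exact (d.w_eq n p x hx).symm

/-- **the rate**, in `C^k` for all `k`, uniformly in the parameter -/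
theorem lin_rate {b : ℝ} (hb : θ < b) (hb1 : b < 1) (k : ℕ) :
    BF R k (fun (q : ℕ × P) x => (b⁻¹) ^ q.1 • (d.Λn q.1 q.2 (d.it q.1 q.2 x) - d.lin q.2 x)) := by
  have h1 := (BF.lim (d.θ_nonneg.trans_lt hb) hb1 (d.W_bf k) (d.dif_bf hb k)).2
  refine ((h1.app BF.id').app BF.id').congr fun q x hx => ?_
  rw [d.w_eq q.1 q.2 x hx]
  simp only [lin, Winf, Wf, _root_.smul_apply, _root_.sub_apply]
  congr 1
  abel

/-- **the shift law** -/
theorem lin_shift (p : P) {x : E} (hx : x ∈ ball (0 : E) R) :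
    d.lin p x = d.Λ p (d.lin (d.S p) (d.g p x)) := by
  have h1 := (d.tendsto_w p hx).comp (tendsto_add_atTop_nat 1)
  have h2 := ((d.Λ p).continuous.tendsto _).comp (d.tendsto_w (d.S p) (d.g_maps p x hx))
  refine tendsto_nhds_unique h1 (h2.congr fun n => ?_)
  simp [Λn, it]

theorem lin_shift' (p : P) {x : E} (hx : x ∈ ball (0 : E) R) :
    d.lin (d.S p) (d.g p x) = fderiv ℝ (d.g p) 0 (d.lin p x) := by
  rw [d.lin_shift p hx, ← ContinuousLinearMap.comp_apply, d.Λ_right]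
  rfl

/-- **uniqueness**, along one orbit -/
theorem lin_unique {C : ℝ} (h : ℕ → E → E) (p : P)
    (hC : ∀ n, ∀ x ∈ ball (0 : E) R, ‖h n x - x‖ ≤ C * ‖x‖ ^ 2)
    (hs : ∀ n, ∀ x ∈ ball (0 : E) R, h n x = d.Λ (d.S^[n] p) (h (n + 1) (d.g (d.S^[n] p) x)))
    {x : E} (hx : x ∈ ball (0 : E) R) : h 0 x = d.lin p x := by
  obtain ⟨D, hD0, hD⟩ := d.lin_sub_le
  have hb : ∀ n, ∀ x ∈ ball (0 : E) R, ‖h n x - d.lin (d.S^[n] p) x‖ ≤ (C + D) * ‖x‖ ^ 2 := by
    intro n x hx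
    have h1 : h n x - d.lin (d.S^[n] p) x = (h n x - x) - (d.lin (d.S^[n] p) x - x) := by abel
    rw [h1, add_mul]
    exact (norm_sub_le _ _).trans (add_le_add (hC n x hx) (hD _ x hx))
  have hk : ∀ (k n : ℕ), ∀ x ∈ ball (0 : E) R,
      ‖h n x - d.lin (d.S^[n] p) x‖ ≤ θ ^ k * ((C + D) * ‖x‖ ^ 2) := by
    intro k
    induction k with
    | zero => intro n x hx; rw [pow_zero, one_mul]; exact hb n x hx
    | succ k ih =>
      intro n x hx
      have h1 := ih (n + 1) _ (d.g_maps (d.S^[n] p) x hx)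
      have hCD : 0 ≤ (C + D) * ‖x‖ ^ 2 := (norm_nonneg _).trans (hb n x hx)
      rw [Function.iterate_succ_apply'] at h1
      rw [hs n x hx, d.lin_shift _ hx, ← map_sub]
      have h2 := d.norm_g_le (d.S^[n] p) hx
      have hK := d.K_nonneg (d.S^[n] p)
      have hθ := d.θ_nonneg
      by_cases hx0 : x = 0
      · subst hx0
        have h3 := hb n 0 hx
        rw [norm_zero] at h3
        have h4 : ‖h n 0 - d.lin (d.S^[n] p) 0‖ = 0 := le_antisymm (by simpa using h3)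
          (norm_nonneg _)
        rw [hs n 0 hx, d.lin_shift _ hx, ← map_sub] at h4
        rw [h4]
        simp
      have hCD' : 0 ≤ C + D := by
        by_contra hneg
        have : (C + D) * ‖x‖ ^ 2 < 0 :=
          mul_neg_of_neg_of_pos (not_le.1 hneg) (by positivity)
        linarith
      calc _ ≤ ‖d.Λ (d.S^[n] p)‖ * (θ ^ k * ((C + D) * ‖d.g (d.S^[n] p) x‖ ^ 2)) :=
            ((d.Λ _).le_opNorm _).trans (by gcongr)
        _ ≤ ‖d.Λ (d.S^[n] p)‖ * (θ ^ k * ((C + D) * (d.K (d.S^[n] p) * ‖x‖) ^ 2)) := by gcongr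
        _ = (‖d.Λ (d.S^[n] p)‖ * d.K (d.S^[n] p) ^ 2) * (θ ^ k * ((C + D) * ‖x‖ ^ 2)) := by ring
        _ ≤ θ * (θ ^ k * ((C + D) * ‖x‖ ^ 2)) :=
            mul_le_mul_of_nonneg_right (d.bunch _) (by positivity)
        _ = _ := by ring
  have h1 : Tendsto (fun k : ℕ => θ ^ k * ((C + D) * ‖x‖ ^ 2)) atTop (𝓝 0) := by
    have := (tendsto_pow_atTop_nhds_zero_of_lt_one d.θ_nonneg d.θ_lt).mul_const
      ((C + D) * ‖x‖ ^ 2)
    rwa [zero_mul] at this
  have h2 : ‖h 0 x - d.lin p x‖ ≤ 0 := ge_of_tendsto' h1 fun k => hk k 0 x hx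
  exact sub_eq_zero.1 (norm_le_zero_iff.1 h2)

end LinData

end Vale.Agent.P207.N4.H734
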