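import Vale.Agent.P207.H734.N4.Lin

/-!
# P207, all dimensions, row T1: the linearisation is injective, its derivative is invertible with
bounded inverse, its image contains a ball, all uniformly in the parameter
-/

noncomputable section

namespace Vale.Agent.P207.N4.H734

open Set Metric Filter Topology
open Vale.Agent.P207.N3.H992

universe u

variable {P : Type*} [TopologicalSpace P]
variable {E : Type u} [NormedAddCommGroup E] [NormedSpace ℝ E] {R θ : ℝ}

namespace LinData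

variable (d : LinData P E R θ)

theorem it_mem (n : ℕ) : ∀ (p : P), ∀ x ∈ ball (0 : E) R, d.it n p x ∈ ball (0 : E) R := by
  induction n with
  | zero => intro p x hx; exact hx
  | succ n ih => intro p x hx; exact ih _ _ (d.g_maps p x hx)

variable [CompleteSpace E]

/-- the linearisation is close to the identity near `0`, uniformly -/
theorem exists_near : ∃ r, 0 < r ∧ r ≤ R ∧ ∀ p, ∀ x ∈ ball (0 : E) r,
    ‖fderiv ℝ (d.lin p) x - ContinuousLinearMap.id ℝ E‖ ≤ 1 / 2 := by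
  obtain ⟨C, hC⟩ := (d.lin_bf 2).der.der.b0.bdd
  refine ⟨min R (1 / (2 * (|C| + 1))), lt_min d.R_pos (by positivity), min_le_left _ _,
    fun p x hx => ?_⟩
  have hx1 : x ∈ ball (0 : E) R := ball_subset_ball (min_le_left _ _) hx
  have hx2 : ‖x‖ ≤ 1 / (2 * (|C| + 1)) :=
    ((mem_ball_zero_iff.1 hx).le).trans (min_le_right _ _)
  have h1 : ‖fderiv ℝ (d.lin p) x - fderiv ℝ (d.lin p) 0‖ ≤ (|C| + 1) * ‖x - 0‖ :=
    (convex_ball (0 : E) R).norm_image_sub_le_of_norm_fderiv_le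
      (fun w hw => (d.lin_bf 2).der.diff hw)
      (fun w hw => (hC p w hw).trans ((le_abs_self C).trans (by linarith)))
      (mem_ball_self d.R_pos) hx1
  rw [d.lin_fderiv_zero, sub_zero] at h1
  calc _ ≤ (|C| + 1) * ‖x‖ := h1
    _ ≤ (|C| + 1) * (1 / (2 * (|C| + 1))) := by gcongr
    _ = 1 / 2 := by
        have : |C| + 1 ≠ 0 := by positivity
        field_simp

theorem norm_it_le {κ : ℝ} (hκ : ∀ p, d.K p ≤ κ) (n : ℕ) : ∀ (p : P),
    ∀ x ∈ ball (0 : E) R, ‖d.it n p x‖ ≤ κ ^ n * ‖x‖ := by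
  induction n with
  | zero => intro p x _; simp [it]
  | succ n ih =>
    intro p x hx
    have hκ0 : 0 ≤ κ := (d.K_nonneg p).trans (hκ p)
    calc ‖d.it (n + 1) p x‖ ≤ κ ^ n * ‖d.g p x‖ := ih _ _ (d.g_maps p x hx)
      _ ≤ κ ^ n * (κ * ‖x‖) := by
          gcongr
          exact (d.norm_g_le p hx).trans (by gcongr; exact hκ p)
      _ = _ := by ring

/-- an iterate maps the whole ball into a given small ball -/
theorem exists_it {κ : ℝ} (hκ : ∀ p, d.K p ≤ κ) (hκ1 : κ < 1) {r : ℝ} (hr : 0 < r) :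
    ∃ n : ℕ, ∀ (p : P), ∀ x ∈ ball (0 : E) R, d.it n p x ∈ ball (0 : E) r := by
  have hp : ∀ p : P, 0 ≤ κ := fun p => (d.K_nonneg p).trans (hκ p)
  by_cases hP : Nonempty P
  · obtain ⟨p0⟩ := hP
    have h1 : Tendsto (fun n : ℕ => κ ^ n * R) atTop (𝓝 0) := by
      have := (tendsto_pow_atTop_nhds_zero_of_lt_one (hp p0) hκ1).mul_const R
      rwa [zero_mul] at this
    obtain ⟨n, hn⟩ := (h1.eventually (gt_mem_nhds hr)).exists
    refine ⟨n, fun p x hx => mem_ball_zero_iff.2 ?_⟩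
    have h2 := d.norm_it_le hκ n p x hx
    have h3 : κ ^ n * ‖x‖ ≤ κ ^ n * R :=
      mul_le_mul_of_nonneg_left (mem_ball_zero_iff.1 hx).le (pow_nonneg (hp p0) _)
    linarith
  · exact ⟨0, fun p => (hP ⟨p⟩).elim⟩

/-- the derivative of the shift law -/
theorem lin_fderiv_shift (p : P) {x : E} (hx : x ∈ ball (0 : E) R) :
    fderiv ℝ (d.lin p) x = (d.Λ p).comp
      ((fderiv ℝ (d.lin (d.S p)) (d.g p x)).comp (fderiv ℝ (d.g p) x)) := by
  have h1 : HasFDerivAt (fun y => d.Λ p (d.lin (d.S p) (d.g p y))) ((d.Λ p).comp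
      ((fderiv ℝ (d.lin (d.S p)) (d.g p x)).comp (fderiv ℝ (d.g p) x))) x :=
    (d.Λ p).hasFDerivAt.comp x
      (((d.lin_bf 1).diff (d.g_maps p x hx)).hasFDerivAt.comp x
        ((d.g_bf 1).diff (p := p) hx).hasFDerivAt)
  refine (h1.congr_of_eventuallyEq ?_).fderiv
  filter_upwards [isOpen_ball.mem_nhds hx] with y hy using d.lin_shift p hy

omit [CompleteSpace E] in
/-- the inverse of `D (g p) 0` does not contract -/
theorem norm_le_Λ (p : P) (v : E) : ‖v‖ ≤ ‖d.Λ p v‖ := by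
  have h1 : fderiv ℝ (d.g p) 0 (d.Λ p v) = v := by
    have := congrArg (fun L : E →L[ℝ] E => L v) (d.Λ_right p)
    exact this
  calc ‖v‖ = ‖fderiv ℝ (d.g p) 0 (d.Λ p v)‖ := by rw [h1]
    _ ≤ ‖fderiv ℝ (d.g p) 0‖ * ‖d.Λ p v‖ := ContinuousLinearMap.le_opNorm _ _
    _ ≤ 1 * ‖d.Λ p v‖ := by
        gcongr
        exact (d.K_le p 0 (mem_ball_self d.R_pos)).trans (d.K_one p)
    _ = _ := one_mul _

/-- **bounded inverse of the derivative** -/
theorem lin_fderiv_lower {κ c₀ : ℝ} (hκ : ∀ p, d.K p ≤ κ) (hκ1 : κ < 1) (hc₀ : 0 < c₀)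
    (hg : ∀ p, ∀ x ∈ ball (0 : E) R, ∀ v, c₀ * ‖v‖ ≤ ‖fderiv ℝ (d.g p) x v‖) :
    ∃ c, 0 < c ∧ ∀ p, ∀ x ∈ ball (0 : E) R, ∀ v, c * ‖v‖ ≤ ‖fderiv ℝ (d.lin p) x v‖ := by
  obtain ⟨r, hr, hrR, hn⟩ := d.exists_near
  have key : ∀ n : ℕ, ∃ c, 0 < c ∧ ∀ p, ∀ x ∈ ball (0 : E) R, d.it n p x ∈ ball (0 : E) r →
      ∀ v, c * ‖v‖ ≤ ‖fderiv ℝ (d.lin p) x v‖ := by
    intro n
    induction n with
    | zero =>
      refine ⟨1 / 2, by norm_num, fun p x hx hxr v => ?_⟩
      have h1 := hn p x hxr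
      have h2 : ‖v‖ ≤ ‖fderiv ℝ (d.lin p) x v‖ +
          ‖(fderiv ℝ (d.lin p) x - ContinuousLinearMap.id ℝ E) v‖ := by
        have h3 : v = fderiv ℝ (d.lin p) x v -
          (fderiv ℝ (d.lin p) x - ContinuousLinearMap.id ℝ E) v := by
          rw [_root_.sub_apply]
          simp
        conv_lhs => rw [h3]
        exact norm_sub_le _ _
      have h4 : ‖(fderiv ℝ (d.lin p) x - ContinuousLinearMap.id ℝ E) v‖ ≤ 1 / 2 * ‖v‖ :=
        (ContinuousLinearMap.le_opNorm _ _).trans (by gcongr)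
      linarith
    | succ n ih =>
      obtain ⟨c, hc, h⟩ := ih
      refine ⟨c * c₀, by positivity, fun p x hx hxr v => ?_⟩
      rw [d.lin_fderiv_shift p hx]
      have h1 := h (d.S p) _ (d.g_maps p x hx) hxr (fderiv ℝ (d.g p) x v)
      calc c * c₀ * ‖v‖ = c * (c₀ * ‖v‖) := by ring
        _ ≤ c * ‖fderiv ℝ (d.g p) x v‖ := by gcongr; exact hg p x hx v
        _ ≤ _ := h1
        _ ≤ _ := d.norm_le_Λ p _
  obtain ⟨n, hN⟩ := d.exists_it hκ hκ1 hr
  obtain ⟨c, hc, h⟩ := key n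
  exact ⟨c, hc, fun p x hx v => h p x hx (hN p x hx) v⟩

/-- **the linearisation is injective** -/
theorem lin_inj {κ : ℝ} (hκ : ∀ p, d.K p ≤ κ) (hκ1 : κ < 1)
    (hg : ∀ p, InjOn (d.g p) (ball (0 : E) R)) (p : P) : InjOn (d.lin p) (ball (0 : E) R) := by
  obtain ⟨r, hr, hrR, hn⟩ := d.exists_near
  have hsub : ball (0 : E) r ⊆ ball (0 : E) R := ball_subset_ball hrR
  have h0 : ∀ p, InjOn (d.lin p) (ball (0 : E) r) := by
    intro p x hx y hy hxy
    have h1 : ‖(d.lin p y - y) - (d.lin p x - x)‖ ≤ 1 / 2 * ‖y - x‖ :=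
      (convex_ball (0 : E) r).norm_image_sub_le_of_norm_hasFDerivWithin_le
        (f := fun w => d.lin p w - w)
        (f' := fun w => fderiv ℝ (d.lin p) w - ContinuousLinearMap.id ℝ E)
        (fun w hw => (((d.lin_bf 1).diff (hsub hw)).hasFDerivAt.sub
          (hasFDerivAt_id w)).hasFDerivWithinAt)
        (fun w hw => hn p w hw) hx hy
    have h2 : (d.lin p y - y) - (d.lin p x - x) = -(y - x) := by rw [hxy]; abel
    rw [h2, norm_neg] at h1
    have h3 : ‖y - x‖ = 0 := by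
      have := norm_nonneg (y - x)
      linarith
    exact (sub_eq_zero.1 (norm_eq_zero.1 h3)).symm
  have key : ∀ n : ℕ, ∀ p, ∀ x ∈ ball (0 : E) R, ∀ y ∈ ball (0 : E) R,
      d.it n p x ∈ ball (0 : E) r → d.it n p y ∈ ball (0 : E) r → d.lin p x = d.lin p y →
      x = y := by
    intro n
    induction n with
    | zero => intro p x _ y _ hxr hyr h; exact h0 p hxr hyr h
    | succ n ih =>
      intro p x hx y hy hxr hyr h
      refine hg p hx hy (ih (d.S p) _ (d.g_maps p x hx) _ (d.g_maps p y hy) hxr hyr ?_)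
      rw [d.lin_shift' p hx, d.lin_shift' p hy, h]
  obtain ⟨n, hN⟩ := d.exists_it hκ hκ1 hr
  exact fun x hx y hy h => key n p x hx y hy (hN p x hx) (hN p y hy) h

/-- **the image contains a ball** -/
theorem exists_ball_subset : ∃ r, 0 < r ∧ ∀ p, ball (0 : E) r ⊆ d.lin p '' ball (0 : E) R := by
  obtain ⟨r, hr, hrR, hn⟩ := d.exists_near
  refine ⟨r / 4, by positivity, fun p y hy => ?_⟩
  have hsub : ball (0 : E) r ⊆ ball (0 : E) R := ball_subset_ball hrR
  -- contraction `x ↦ y - (lin x - x)` on the closed ball of radius `r / 2`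
  set T : E → E := fun x => y - (d.lin p x - x) with hT
  have hsub' : closedBall (0 : E) (r / 2) ⊆ ball (0 : E) r :=
    closedBall_subset_ball (by linarith)
  have hlip : ∀ x ∈ closedBall (0 : E) (r / 2), ∀ x' ∈ closedBall (0 : E) (r / 2),
      ‖T x' - T x‖ ≤ 1 / 2 * ‖x' - x‖ := by
    intro x hx x' hx'
    have h1 : ‖(d.lin p x' - x') - (d.lin p x - x)‖ ≤ 1 / 2 * ‖x' - x‖ :=
      (convex_ball (0 : E) r).norm_image_sub_le_of_norm_hasFDerivWithin_le
        (f := fun w => d.lin p w - w)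
        (f' := fun w => fderiv ℝ (d.lin p) w - ContinuousLinearMap.id ℝ E)
        (fun w hw => (((d.lin_bf 1).diff (hsub hw)).hasFDerivAt.sub
          (hasFDerivAt_id w)).hasFDerivWithinAt)
        (fun w hw => hn p w hw) (hsub' hx) (hsub' hx')
    have h2 : T x' - T x = -((d.lin p x' - x') - (d.lin p x - x)) := by
      simp only [hT]; abel
    rw [h2, norm_neg]
    exact h1
  have hmap : MapsTo T (closedBall (0 : E) (r / 2)) (closedBall (0 : E) (r / 2)) := by
    intro x hx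
    have h1 := hlip 0 (mem_closedBall_self (by positivity)) x hx
    have h2 : T 0 = y := by simp [hT, d.lin_zero]
    rw [h2, sub_zero] at h1
    rw [mem_closedBall_zero_iff] at hx ⊢
    have h3 : ‖T x‖ ≤ ‖T x - y‖ + ‖y‖ := by
      have : T x = (T x - y) + y := by abel
      conv_lhs => rw [this]
      exact norm_add_le _ _
    have h4 : ‖y‖ < r / 4 := mem_ball_zero_iff.1 hy
    linarith
  have hc : IsComplete (closedBall (0 : E) (r / 2)) := isClosed_closedBall.isComplete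
  have hcon : ContractingWith (1 / 2) (hmap.restrict T _ _) := by
    refine ⟨by norm_num, LipschitzWith.of_dist_le_mul fun a b => ?_⟩
    have h1 := hlip b.1 b.2 a.1 a.2
    rw [Subtype.dist_eq, Subtype.dist_eq, dist_eq_norm, dist_eq_norm]
    simpa using h1
  obtain ⟨x, hx, hfix, -⟩ := hcon.exists_fixedPoint' hc hmap
    (mem_closedBall_self (by positivity) : (0 : E) ∈ closedBall (0 : E) (r / 2))
    (edist_ne_top _ _)
  refine ⟨x, hsub (hsub' hx), ?_⟩
  have h5 : T x = x := hfix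
  simp only [hT] at h5
  have h6 : y - d.lin p x = 0 := by
    have : y - (d.lin p x - x) - x = 0 := sub_eq_zero.2 h5
    rw [← this]; abel
  exact (sub_eq_zero.1 h6).symm

end LinData

end Vale.Agent.P207.N4.H734
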